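import Vale.Agent.P323.Z9.EE

/-!
# Section 9: perfect colourings, presentation by a pseudogroup, and the exact statements used
elsewhere.
-/

namespace Vale.Agent.P323.Z

open CategoryTheory

variable {D : Type 1} [Category.{1} D]

namespace SEq

variable {B : CObj D} (E : SEq B)

/-- the pair `(s, t)` is always in `E` over `r` -/
def Alw (r : Col B.x) {d : D} (s t : d ⟶ B.x) : Prop :=
  ∀ (W : CObj D) (e₁ e₂ : B ⟶ W), Col.Le r (Col.pull e₁.u W.p) → Col.Le r (Col.pull e₂.u W.p) →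
    s ≫ e₁.u = t ≫ e₂.u → E.rel e₁ e₂

/-- the pair `(s, t)` is never in `E` over `r` -/
def Nvr (r : Col B.x) {d : D} (s t : d ⟶ B.x) : Prop :=
  ∀ (W : CObj D) (e₁ e₂ : B ⟶ W), Col.Le r (Col.pull e₁.u W.p) → Col.Le r (Col.pull e₂.u W.p) →
    s ≫ e₁.u = t ≫ e₂.u → ¬ E.rel e₁ e₂

variable {E}

theorem EE.alw {r : Col B.x} {d : D} {s : d ⟶ B.x} (h : E.EE r s) : E.Alw r s s := h

theorem Alw.mono_col {r r' : Col B.x} (h : Col.Le r r') {d : D} {s t : d ⟶ B.x}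
    (hs : E.Alw r s t) : E.Alw r' s t :=
  fun W e₁ e₂ h₁ h₂ he => hs W e₁ e₂ (h.trans h₁) (h.trans h₂) he

theorem Nvr.mono_col {r r' : Col B.x} (h : Col.Le r r') {d : D} {s t : d ⟶ B.x}
    (hs : E.Nvr r s t) : E.Nvr r' s t :=
  fun W e₁ e₂ h₁ h₂ he => hs W e₁ e₂ (h.trans h₁) (h.trans h₂) he

theorem Alw.symm {r : Col B.x} {d : D} {s t : d ⟶ B.x} (hs : E.Alw r s t) : E.Alw r t s :=
  fun W e₁ e₂ h₁ h₂ he => E.symm (hs W e₂ e₁ h₂ h₁ he.symm)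

theorem Alw.up {r : Col B.x} {d d' : D} {s t : d ⟶ B.x} (g : d' ⟶ d)
    (hs : E.Alw r (g ≫ s) (g ≫ t)) : E.Alw r s t :=
  fun W e₁ e₂ h₁ h₂ he => hs W e₁ e₂ h₁ h₂ (by rw [Category.assoc, Category.assoc, he])

end SEq

section
variable [TwBase D]

/-- perfect colouring at stage `i` -/
structure Perfect {B : CObj D} (E : SEq B) (i : Ordinal.{0}) (r : Col B.x) : Prop where
  le : Col.Le B.p r
  sm : Col.Sm r
  obj : Mem i (𝟙 B.x)
  dom : ∀ z : Dn B.x, r z ≠ none ↔ Mem i z.2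
  stab : ∀ r' : Col B.x, Col.Le r r' → Col.Sm r' → ∀ {d : D} (s : d ⟶ B.x),
    E.EE r' s → E.EE r s
  gen : ∀ {d : D} (s : d ⟶ B.x), E.EE r s →
    ∃ (e : D) (g : e ⟶ d), Mem i (g ≫ s) ∧ E.EE r (g ≫ s)
  dec : ∀ {d : D} (s t : d ⟶ B.x), Mem i s → Mem i t → E.EE r s → E.EE r t →
    E.Alw r s t ∨ E.Nvr r s t

/-- the stable equivalence `E` is presented over `r` by the pseudogroup `P` of stage `i` -/
structure Presented {B : CObj D} (E : SEq B) (i : Ordinal.{0}) (r : Col B.x)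
    (P : PG D i B.x) : Prop where
  iff : ∀ {W : CObj D} (e₁ e₂ : B ⟶ W), Col.Le r (Col.pull e₁.u W.p) →
    Col.Le r (Col.pull e₂.u W.p) →
    (E.rel e₁ e₂ ↔ ∃ (d : D) (s t : d ⟶ B.x), P.rel s t ∧ s ≫ e₁.u = t ≫ e₂.u)
  inv : ∀ {c : D} (γ : c ⟶ B.x),
    (∀ (W : CObj D) (e₁ e₂ : B ⟶ W), Col.Le r (Col.pull e₁.u W.p) →
      Col.Le r (Col.pull e₂.u W.p) → E.rel e₁ e₂ → γ ≫ e₁.u = γ ≫ e₂.u) →
    ∀ {d : D} {s t : d ⟶ B.x}, P.rel s t → ∃ v : c ⟶ d, v ≫ s = γ ∧ v ≫ t = γ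

end

/-! ### Statements -/

/-- Step 1. -/
def StepOneStatement (D : Type 1) [Category.{1} D] [TwBase D] : Prop :=
  ∀ {B : CObj D} (E : SEq B) {X : CObj D} (u v : B ⟶ X), E.rel u v →
    ∀ {a : D} (s t : a ⟶ B.x), IsPB s t u.u v.u → E.EE (Col.pull u.u X.p) s

/-- Stabilization, decision, perfect colourings. -/
def ExistsPerfectStatement (D : Type 1) [Category.{1} D] [TwBase D] : Prop :=
  ∀ {B : CObj D} (E : SEq B) (i₀ : Ordinal.{0}),
    ∃ (i : Ordinal.{0}) (r : Col B.x), i₀ ≤ i ∧ Perfect E i r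

/-- Theorem 9 at a perfect colouring. -/
def PresentedStatement (D : Type 1) [Category.{1} D] [TwBase D] : Prop :=
  ∀ {B : CObj D} (E : SEq B) (i : Ordinal.{0}) (r : Col B.x), Perfect E i r →
    ∃ P : PG D i B.x, Presented E i r P

/-- Theorem 9 (the black box for sections 11-12). -/
def Theorem9Statement (D : Type 1) [Category.{1} D] [TwBase D] : Prop :=
  ∀ {B : CObj D} (E : SEq B) (i₀ : Ordinal.{0}),
    ∃ (i : Ordinal.{0}) (r : Col B.x) (P : PG D i B.x),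
      i₀ ≤ i ∧ Perfect E i r ∧ Presented E i r P

theorem theorem9_of [TwBase D] (h1 : ExistsPerfectStatement D) (h2 : PresentedStatement D) :
    Theorem9Statement D := by
  intro B E i₀
  obtain ⟨i, r, hi, hr⟩ := h1 E i₀
  obtain ⟨P, hP⟩ := h2 E i r hr
  exact ⟨i, r, P, hi, hr, hP⟩

end Vale.Agent.P323.Z
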